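import Crest.Agent.SmoothFlow.Nemytskii

/-!
A smooth, globally Lipschitz vector field on a Banach space has a jointly smooth flow for
times `|t| < T` whenever `T * L < 1`.
-/

set_option autoImplicit false
set_option linter.unusedSectionVars false

open scoped ContDiff Topology NNReal
open Filter Set

noncomputable section

namespace Crest.Agent.SmoothFlow

universe u

/-- general principle: a parametrised family of contractions that is jointly smooth has a smooth
fixed point. -/
theorem contDiffAt_fixedPoint {Λ B : Type*} [NormedAddCommGroup Λ] [NormedSpace ℝ Λ]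
    [CompleteSpace Λ] [NormedAddCommGroup B] [NormedSpace ℝ B] [CompleteSpace B]
    (P : Λ × B → B) (hP : ContDiff ℝ ∞ P) (Γ : Λ → B) (p₀ : Λ) (k : ℝ≥0) (hk : k < 1)
    (hlip : LipschitzWith k (fun γ => P (p₀, γ))) (h0 : P (p₀, Γ p₀) = Γ p₀)
    (huniq : ∀ᶠ p in 𝓝 p₀, ∀ γ, P (p, γ) = γ → γ = Γ p) :
    ContDiffAt ℝ ∞ Γ p₀ := by
  let f : Λ × B → B := fun q => q.2 - P q
  have hf : ContDiff ℝ ∞ f := contDiff_snd.sub hP
  let u : Λ × B := (p₀, Γ p₀)
  have hPd : HasFDerivAt P (fderiv ℝ P u) u := (hP.differentiable (by simp) u).hasFDerivAt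
  let D : B →L[ℝ] B := fderiv ℝ P u ∘L ContinuousLinearMap.inr ℝ Λ B
  have hD : HasFDerivAt (fun γ => P (p₀, γ)) D (Γ p₀) :=
    hPd.comp (Γ p₀) (hasFDerivAt_prodMk_right p₀ (Γ p₀))
  have hDn : ‖D‖ < 1 := by
    have := norm_fderiv_le_of_lipschitz ℝ (x₀ := Γ p₀) hlip
    rw [hD.fderiv] at this
    exact this.trans_lt (by exact_mod_cast hk)
  have hfd : fderiv ℝ f u ∘L ContinuousLinearMap.inr ℝ Λ B = 1 - D := by
    have : HasFDerivAt f (ContinuousLinearMap.snd ℝ Λ B - fderiv ℝ P u) u :=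
      hasFDerivAt_snd.sub hPd
    rw [this.fderiv]
    ext v
    simp [D]
  have hinv : (fderiv ℝ f u ∘L ContinuousLinearMap.inr ℝ Λ B).IsInvertible := by
    rw [hfd]
    obtain ⟨w, hw⟩ := isUnit_one_sub_of_norm_lt_one hDn
    refine ⟨ContinuousLinearEquiv.ofUnit w, ?_⟩
    rw [← hw]; rfl
  have cdf : ContDiffAt ℝ ∞ f u := hf.contDiffAt
  have h1 := cdf.contDiffAt_implicitFunction (by simp) hinv
  have h2 := cdf.eventually_apply_implicitFunction (by simp) hinv
  refine h1.congr_of_eventuallyEq ?_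
  filter_upwards [h2, huniq] with p hp hu
  refine (hu _ ?_).symm
  have hu0 : f u = 0 := by simp [f, u, h0]
  rw [hu0] at hp
  exact (sub_eq_zero.mp hp).symm

variable {E : Type u} [NormedAddCommGroup E] [NormedSpace ℝ E] [CompleteSpace E]

/-- the parameter interval -/
abbrev J : Set ℝ := Icc (-1 : ℝ) 1

/-- extension to the line -/
def extJ (γ : C(J, E)) (r : ℝ) : E := γ (projIcc (-1 : ℝ) 1 (by norm_num) r)

omit [NormedSpace ℝ E] [CompleteSpace E] in
theorem continuous_extJ (γ : C(J, E)) : Continuous (extJ γ) :=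
  γ.continuous.comp continuous_projIcc

omit [NormedSpace ℝ E] [CompleteSpace E] in
theorem extJ_of_mem (γ : C(J, E)) {r : ℝ} (hr : r ∈ J) : extJ γ r = γ ⟨r, hr⟩ := by
  simp [extJ, projIcc_of_mem _ hr]

omit [NormedSpace ℝ E] [CompleteSpace E] in
theorem norm_extJ_le (γ : C(J, E)) (r : ℝ) : ‖extJ γ r‖ ≤ ‖γ‖ := γ.norm_coe_le_norm _

/-- the integral operator, linear version -/
def intLin : C(J, E) →ₗ[ℝ] C(J, E) where
  toFun γ := ⟨fun s => ∫ r in (0 : ℝ)..(s : ℝ), extJ γ r,
    (intervalIntegral.continuous_primitive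
      (fun a b => (continuous_extJ γ).intervalIntegrable a b) 0).comp continuous_subtype_val⟩
  map_add' γ δ := by
    ext s
    simp only [ContinuousMap.coe_mk, ContinuousMap.add_apply]
    rw [← intervalIntegral.integral_add ((continuous_extJ γ).intervalIntegrable _ _)
      ((continuous_extJ δ).intervalIntegrable _ _)]
    rfl
  map_smul' c γ := by
    ext s
    simp only [ContinuousMap.coe_mk, ContinuousMap.smul_apply, RingHom.id_apply]
    rw [← intervalIntegral.integral_smul]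
    rfl

theorem intLin_bound (γ : C(J, E)) : ‖intLin γ‖ ≤ 1 * ‖γ‖ := by
  rw [ContinuousMap.norm_le _ (by positivity)]
  intro s
  have := intervalIntegral.norm_integral_le_of_norm_le_const (a := 0) (b := (s : ℝ))
    (f := extJ γ) (C := ‖γ‖) (fun x _ => norm_extJ_le γ x)
  refine this.trans ?_
  have hs : |(s : ℝ) - 0| ≤ 1 := by
    rw [sub_zero, abs_le]; exact s.2
  rw [one_mul]
  exact mul_le_of_le_one_right (norm_nonneg _) hs

/-- the integral operator -/
def intOp : C(J, E) →L[ℝ] C(J, E) := LinearMap.mkContinuous intLin 1 intLin_bound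

theorem intOp_apply (γ : C(J, E)) (s : J) :
    intOp γ s = ∫ r in (0 : ℝ)..(s : ℝ), extJ γ r := rfl

theorem norm_intOp_le (γ : C(J, E)) : ‖intOp γ‖ ≤ ‖γ‖ := by
  have := intLin_bound γ
  rw [one_mul] at this
  exact this

/-- the Picard operator -/
def picardOp (X : C(E, E)) (q : (ℝ × E) × C(J, E)) : C(J, E) :=
  ContinuousLinearMap.const ℝ J q.1.2 + q.1.1 • intOp (nem X q.2)

theorem contDiff_picardOp (X : C(E, E)) (hX : ContDiff ℝ ∞ X) : ContDiff ℝ ∞ (picardOp X) := by
  unfold picardOp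
  have h1 : ContDiff ℝ ∞ fun q : (ℝ × E) × C(J, E) => q.1.1 := by fun_prop
  have h2 : ContDiff ℝ ∞ fun q : (ℝ × E) × C(J, E) => intOp (nem X q.2) :=
    (intOp (E := E)).contDiff.comp ((contDiff_nem X hX).comp contDiff_snd)
  refine ContDiff.add ?_ (h1.smul h2)
  exact (ContinuousLinearMap.const ℝ J : E →L[ℝ] C(J, E)).contDiff.comp (by fun_prop)

theorem dist_picardOp_le (X : C(E, E)) {L : ℝ≥0} (hL : LipschitzWith L X) (p : ℝ × E)
    (γ δ : C(J, E)) : dist (picardOp X (p, γ)) (picardOp X (p, δ)) ≤ |p.1| * L * dist γ δ := by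
  have h1 : ‖nem X γ - nem X δ‖ ≤ L * dist γ δ := by
    rw [ContinuousMap.norm_le _ (by positivity)]
    intro s
    simp only [ContinuousMap.sub_apply, nem_apply]
    rw [← dist_eq_norm]
    exact (hL.dist_le_mul _ _).trans
      (mul_le_mul_of_nonneg_left (ContinuousMap.dist_apply_le_dist s) L.2)
  rw [dist_eq_norm]
  simp only [picardOp, add_sub_add_left_eq_sub, ← smul_sub, ← map_sub, norm_smul, Real.norm_eq_abs]
  rw [mul_assoc]
  exact mul_le_mul_of_nonneg_left ((norm_intOp_le _).trans h1) (abs_nonneg _)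

theorem lipschitz_picardOp (X : C(E, E)) {L : ℝ≥0} (hL : LipschitzWith L X) (p : ℝ × E) :
    LipschitzWith (‖p.1‖₊ * L) (fun γ => picardOp X (p, γ)) :=
  LipschitzWith.of_dist_le_mul fun γ δ => by
    simpa using dist_picardOp_le X hL p γ δ

theorem picard_unique (X : C(E, E)) {L : ℝ≥0} (hL : LipschitzWith L X) (p : ℝ × E)
    (hp : |p.1| * L < 1) {γ δ : C(J, E)} (hγ : picardOp X (p, γ) = γ)
    (hδ : picardOp X (p, δ) = δ) : γ = δ := by
  have := dist_picardOp_le X hL p γ δ
  rw [hγ, hδ] at this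
  have h0 : 0 ≤ dist γ δ := dist_nonneg
  have : dist γ δ = 0 := by nlinarith
  exact dist_eq_zero.mp this

theorem picard_exists (X : C(E, E)) {L : ℝ≥0} (hL : LipschitzWith L X) (p : ℝ × E)
    (hp : |p.1| * L < 1) : ∃ γ : C(J, E), picardOp X (p, γ) = γ := by
  have hc : ContractingWith (‖p.1‖₊ * L) (fun γ => picardOp X (p, γ)) :=
    ⟨by exact_mod_cast hp, lipschitz_picardOp X hL p⟩
  exact ⟨hc.fixedPoint _, hc.fixedPoint_isFixedPt⟩

/-- the fixed point -/
def picardFix (X : C(E, E)) (p : ℝ × E) : C(J, E) :=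
  Classical.epsilon fun γ => picardOp X (p, γ) = γ

theorem picardFix_spec (X : C(E, E)) {L : ℝ≥0} (hL : LipschitzWith L X) (p : ℝ × E)
    (hp : |p.1| * L < 1) : picardOp X (p, picardFix X p) = picardFix X p :=
  Classical.epsilon_spec (picard_exists X hL p hp)

theorem contDiffAt_picardFix (X : C(E, E)) (hX : ContDiff ℝ ∞ X) {L : ℝ≥0}
    (hL : LipschitzWith L X) (p : ℝ × E) (hp : |p.1| * L < 1) :
    ContDiffAt ℝ ∞ (picardFix X) p := by
  refine contDiffAt_fixedPoint (picardOp X) (contDiff_picardOp X hX) _ p _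
    (by exact_mod_cast hp) (lipschitz_picardOp X hL p) (picardFix_spec X hL p hp) ?_
  have : ∀ᶠ q : ℝ × E in 𝓝 p, |q.1| * L < 1 :=
    (by fun_prop : Continuous fun q : ℝ × E => |q.1| * (L : ℝ)).continuousAt.eventually_lt_const hp
  filter_upwards [this] with q hq γ hγ
  exact picard_unique X hL q hq hγ (picardFix_spec X hL q hq)

theorem picardFix_apply (X : C(E, E)) {L : ℝ≥0} (hL : LipschitzWith L X) (p : ℝ × E)
    (hp : |p.1| * L < 1) {s : ℝ} (hs : s ∈ J) :
    extJ (picardFix X p) s = p.2 + p.1 • ∫ r in (0 : ℝ)..s, X (extJ (picardFix X p) r) := by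
  rw [extJ_of_mem _ hs]
  conv_lhs => rw [← picardFix_spec X hL p hp]
  rfl

theorem picardFix_scale (X : C(E, E)) {L : ℝ≥0} (hL : LipschitzWith L X) (τ : ℝ) (x : E)
    (hp : |τ| * L < 1) {s : ℝ} (hs : s ∈ J) :
    extJ (picardFix X (τ * s, x)) 1 = extJ (picardFix X (τ, x)) s := by
  have hs1 : |s| ≤ 1 := abs_le.mpr hs
  have hp' : |τ * s| * L < 1 := by
    rw [abs_mul]
    refine lt_of_le_of_lt ?_ hp
    have : |τ| * |s| ≤ |τ| := mul_le_of_le_one_right (abs_nonneg _) hs1
    exact mul_le_mul_of_nonneg_right this L.2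
  let γ := picardFix X (τ, x)
  let δ : C(J, E) := ⟨fun r => extJ γ (s * r), (continuous_extJ γ).comp (by fun_prop)⟩
  have hmem : ∀ r ∈ J, s * r ∈ J := fun r hr => by
    have hr1 : |r| ≤ 1 := abs_le.mpr hr
    apply abs_le.mp
    rw [abs_mul]
    exact mul_le_one₀ hs1 (abs_nonneg _) hr1
  have hδ : picardOp X ((τ * s, x), δ) = δ := by
    ext r
    have h1 := picardFix_apply X hL (τ, x) hp (hmem r r.2)
    change x + (τ * s) • (∫ ρ in (0 : ℝ)..(r : ℝ), X (extJ δ ρ)) = extJ γ (s * r)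
    rw [h1]
    have h2 : (∫ ρ in (0 : ℝ)..(r : ℝ), X (extJ δ ρ)) =
        ∫ ρ in (0 : ℝ)..(r : ℝ), X (extJ γ (s * ρ)) := by
      apply intervalIntegral.integral_congr
      intro ρ hρ
      have hρ' : ρ ∈ J := by
        have := r.2
        rcases mem_uIcc.mp hρ with h | h <;> constructor <;> linarith [this.1, this.2, h.1, h.2]
      simp only
      rw [extJ_of_mem δ hρ']
      rfl
    rw [h2, mul_smul, intervalIntegral.smul_integral_comp_mul_left (fun ρ => X (extJ γ ρ)) s]
    simp [γ]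
  have := picard_unique X hL (τ * s, x) hp' (picardFix_spec X hL _ hp') hδ
  rw [this, extJ_of_mem δ (by norm_num : (1 : ℝ) ∈ J)]
  simp [δ, γ]

/-- Smooth flow of a smooth globally Lipschitz vector field for small times. -/
theorem exists_smooth_flow (X : E → E) (hX : ContDiff ℝ ∞ X) {L : ℝ≥0}
    (hL : LipschitzWith L X) (T : ℝ) (hT : T * L < 1) :
    ∃ ψ : ℝ × E → E, (∀ p : ℝ × E, |p.1| < T → ContDiffAt ℝ ∞ ψ p) ∧ (∀ x, ψ (0, x) = x) ∧
      ∀ x t, |t| < T → HasDerivAt (fun s => ψ (s, x)) (X (ψ (t, x))) t := by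
  let Xc : C(E, E) := ⟨X, hX.continuous⟩
  have hL' : LipschitzWith L Xc := hL
  have hsm : ∀ t : ℝ, |t| ≤ T → |t| * L < 1 := fun t ht =>
    (mul_le_mul_of_nonneg_right ht L.2).trans_lt hT
  refine ⟨fun p => extJ (picardFix Xc p) 1, ?_, ?_, ?_⟩
  · intro p hp
    have h1 := contDiffAt_picardFix Xc hX hL' p (hsm _ hp.le)
    exact (ContinuousMap.evalCLM ℝ (projIcc (-1 : ℝ) 1 (by norm_num) 1) :
      C(J, E) →L[ℝ] E).contDiff.contDiffAt.comp p h1
  · intro x
    have := picardFix_apply Xc hL' (0, x) (by simp) (by norm_num : (1 : ℝ) ∈ J)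
    simpa using this
  · intro x t ht
    have hT0 : 0 < T := (abs_nonneg t).trans_lt ht
    have hTL : |T| * L < 1 := hsm T (by rw [abs_of_pos hT0])
    let γ := picardFix Xc (T, x)
    have hscale : ∀ s : ℝ, |s| < T → extJ (picardFix Xc (s, x)) 1 = extJ γ (s / T) := by
      intro s hs
      have hm : s / T ∈ J := by
        apply abs_le.mp
        rw [abs_div, abs_of_pos hT0, div_le_one hT0]
        exact hs.le
      have := picardFix_scale Xc hL' T x hTL hm
      rwa [mul_div_cancel₀ _ hT0.ne'] at this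
    have hev : ∀ᶠ s in 𝓝 t, |s| < T := continuous_abs.continuousAt.eventually_lt_const ht
    have hcont : Continuous fun r => Xc (extJ γ r) := Xc.continuous.comp (continuous_extJ γ)
    have hd : HasDerivAt (fun s : ℝ => x + T • ∫ r in (0 : ℝ)..(s / T), Xc (extJ γ r))
        (T • ((1 / T) • Xc (extJ γ (t / T)))) t := by
      refine HasDerivAt.const_add x (HasDerivAt.const_smul T ?_)
      have h1 := (hcont.integral_hasStrictDerivAt 0 (t / T)).hasDerivAt
      have h2 : HasDerivAt (fun s : ℝ => s / T) (1 / T) t := (hasDerivAt_id t).div_const T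
      exact h1.scomp t h2
    rw [smul_smul, mul_one_div_cancel hT0.ne', one_smul, ← hscale t ht] at hd
    refine hd.congr_of_eventuallyEq ?_
    filter_upwards [hev] with s hs
    rw [hscale s hs]
    have hm : s / T ∈ J := by
      apply abs_le.mp
      rw [abs_div, abs_of_pos hT0, div_le_one hT0]
      exact hs.le
    exact picardFix_apply Xc hL' (T, x) hTL hm

end Crest.Agent.SmoothFlow
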