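import Mathlib

/-!
Elementary short-time estimates for autonomous ODEs.
-/

set_option autoImplicit false

open scoped NNReal Topology
open Set

namespace Crest.Agent.SmoothFlow

variable {F : Type*} [NormedAddCommGroup F] [NormedSpace ℝ F]

/-- No nonconstant periodic orbit of period `1` when the Lipschitz constant is `< 1`. -/
theorem zero_of_periodic {W : F → F} {S : Set F} {k : ℝ≥0} (hW : LipschitzOnWith k W S)
    (hk : (k : ℝ) < 1) {q : ℝ → F} (hq : ∀ t ∈ Icc (0 : ℝ) 1, HasDerivAt q (W (q t)) t)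
    (hS : ∀ t ∈ Icc (0 : ℝ) 1, q t ∈ S) (hper : q 1 = q 0) : W (q 0) = 0 := by
  have hqc : ContinuousOn q (Icc 0 1) := fun t ht => (hq t ht).continuousAt.continuousWithinAt
  have hc : ContinuousOn (fun t => ‖W (q t)‖) (Icc 0 1) :=
    (hW.continuousOn.comp hqc hS).norm
  obtain ⟨t₀, ht₀, hmax⟩ := isCompact_Icc.exists_isMaxOn (nonempty_Icc.2 zero_le_one) hc
  set M := ‖W (q t₀)‖ with hM
  have hM0 : 0 ≤ M := norm_nonneg _
  have h1 : ∀ t ∈ Icc (0 : ℝ) 1, ‖q t - q t₀‖ ≤ M := by
    intro t ht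
    have := (convex_Icc (0 : ℝ) 1).norm_image_sub_le_of_norm_hasDerivWithin_le
      (f := q) (f' := fun t => W (q t)) (C := M) (fun s hs => (hq s hs).hasDerivWithinAt)
      (fun s hs => hmax hs) ht₀ ht
    refine this.trans (mul_le_of_le_one_right hM0 ?_)
    rw [Real.norm_eq_abs, abs_le]
    constructor <;> linarith [ht.1, ht.2, ht₀.1, ht₀.2]
  have h2 := norm_image_sub_le_of_norm_deriv_le_segment_01'
    (f := fun t => q t - t • W (q t₀)) (f' := fun t => W (q t) - W (q t₀)) (C := k * M)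
    (fun t ht => by
      have := ((hq t ht).fun_sub ((hasDerivAt_id t).smul_const (W (q t₀)))).hasDerivWithinAt
        (s := Icc 0 1)
      simpa using this)
    (fun t ht => by
      have ht' := Ico_subset_Icc_self ht
      rw [← dist_eq_norm]
      refine (hW.dist_le_mul _ (hS t ht') _ (hS t₀ ht₀)).trans ?_
      rw [dist_eq_norm]
      exact mul_le_mul_of_nonneg_left (h1 t ht') k.2)
  simp only [one_smul, zero_smul, sub_zero, hper, sub_sub_cancel_left, norm_neg] at h2
  have hM1 : M ≤ 0 := by nlinarith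
  have := hmax (left_mem_Icc.2 zero_le_one)
  simp only [mem_ofPred_eq] at this
  exact norm_le_zero_iff.mp (this.trans hM1)

/-- Displacement bound for the time-one map. -/
theorem displacement_le {Y : F → F} {k : ℝ≥0} (hY : LipschitzWith k Y)
    (hk : (k : ℝ) ≤ 1 / 2) {q : ℝ → F} (hq : ∀ t ∈ Icc (0 : ℝ) 1, HasDerivAt q (Y (q t)) t) :
    ‖q 1 - q 0‖ ≤ 2 * ‖Y (q 0)‖ := by
  have hqc : ContinuousOn q (Icc 0 1) := fun t ht => (hq t ht).continuousAt.continuousWithinAt
  have hc : ContinuousOn (fun t => ‖q t - q 0‖) (Icc 0 1) := (hqc.sub continuousOn_const).norm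
  obtain ⟨t₀, ht₀, hmax⟩ := isCompact_Icc.exists_isMaxOn (nonempty_Icc.2 zero_le_one) hc
  set D := ‖q t₀ - q 0‖ with hD
  have hD0 : 0 ≤ D := norm_nonneg _
  have h1 := norm_image_sub_le_of_norm_deriv_le_segment' (f := q) (f' := fun t => Y (q t))
    (C := ‖Y (q 0)‖ + k * D) (fun t ht => (hq t ht).hasDerivWithinAt)
    (fun t ht => by
      have ht' := Ico_subset_Icc_self ht
      have h2 : ‖Y (q t) - Y (q 0)‖ ≤ k * D := by
        rw [← dist_eq_norm]
        refine (hY.dist_le_mul _ _).trans ?_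
        rw [dist_eq_norm]
        exact mul_le_mul_of_nonneg_left (hmax ht') k.2
      calc ‖Y (q t)‖ = ‖Y (q 0) + (Y (q t) - Y (q 0))‖ := by simp
        _ ≤ _ := (norm_add_le _ _).trans (by linarith)) t₀ ht₀
  have h3 : D ≤ ‖Y (q 0)‖ + k * D := by
    refine h1.trans (mul_le_of_le_one_right (by positivity) (by linarith [ht₀.2]))
  have h4 : D ≤ 2 * ‖Y (q 0)‖ := by nlinarith
  exact le_trans (hmax (right_mem_Icc.2 zero_le_one)) h4

/-- constancy on `(-T, T)` -/
theorem const_of_hasDerivAt_zero {f : ℝ → F} {T : ℝ} (h : ∀ t, |t| < T → HasDerivAt f 0 t)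
    {t : ℝ} (ht : |t| < T) : f t = f 0 := by
  have hT : 0 < T := (abs_nonneg t).trans_lt ht
  have := (convex_Ioo (-T) T).norm_image_sub_le_of_norm_hasDerivWithin_le
    (f := f) (f' := fun _ => 0) (C := 0) (fun s hs => (h s (abs_lt.mpr hs)).hasDerivWithinAt)
    (fun s _ => by simp) (x := 0) (y := t) ⟨by linarith, hT⟩ (abs_lt.mp ht)
  simpa [sub_eq_zero] using this

end Crest.Agent.SmoothFlow
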