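import Mathlib

/-!
Smoothness of the composition (Nemytskii) operator `γ ↦ f ∘ γ` on `C(K, E)`, `K` compact.
-/

set_option autoImplicit false

open scoped ContDiff Topology
open Filter Set

noncomputable section

namespace Crest.Agent.SmoothFlow

universe u

variable {K : Type*} [TopologicalSpace K] [CompactSpace K]

section Ev

variable {E F G : Type*} [NormedAddCommGroup E] [NormedSpace ℝ E]
  [NormedAddCommGroup F] [NormedSpace ℝ F] [NormedAddCommGroup G] [NormedSpace ℝ G]

/-- pointwise application as a bilinear map -/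
def evLin (K : Type*) [TopologicalSpace K] (B : G →L[ℝ] E →L[ℝ] F) :
    C(K, G) →ₗ[ℝ] C(K, E) →ₗ[ℝ] C(K, F) :=
  LinearMap.mk₂ ℝ (fun A h => ⟨fun s => B (A s) (h s), by fun_prop⟩)
    (by intro A B h; ext s; simp) (by intro c A h; ext s; simp)
    (by intro A h k; ext s; simp) (by intro c A h; ext s; simp)

theorem evLin_bound (B : G →L[ℝ] E →L[ℝ] F) (A : C(K, G)) (h : C(K, E)) :
    ‖evLin K B A h‖ ≤ ‖B‖ * ‖A‖ * ‖h‖ := by
  rw [ContinuousMap.norm_le _ (by positivity)]
  intro s
  calc ‖B (A s) (h s)‖ ≤ ‖B‖ * ‖A s‖ * ‖h s‖ := B.le_opNorm₂ _ _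
    _ ≤ ‖B‖ * ‖A‖ * ‖h‖ := by
      gcongr
      · exact A.norm_coe_le_norm s
      · exact h.norm_coe_le_norm s

/-- pointwise application as a continuous bilinear map -/
def ev (K : Type*) [TopologicalSpace K] [CompactSpace K] (B : G →L[ℝ] E →L[ℝ] F) :
    C(K, G) →L[ℝ] C(K, E) →L[ℝ] C(K, F) :=
  LinearMap.mkContinuous₂ (evLin K B) ‖B‖ (evLin_bound B)

@[simp] theorem ev_apply (B : G →L[ℝ] E →L[ℝ] F) (A : C(K, G)) (h : C(K, E)) (s : K) :
    ev K B A h s = B (A s) (h s) := rfl

/-- the composition operator -/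
def nem (f : C(E, F)) (γ : C(K, E)) : C(K, F) := f.comp γ

omit [CompactSpace K] [NormedSpace ℝ E] [NormedSpace ℝ F] in
@[simp] theorem nem_apply (f : C(E, F)) (γ : C(K, E)) (s : K) : nem f γ s = f (γ s) := rfl

theorem hasFDerivAt_nem (B : G →L[ℝ] E →L[ℝ] F) (f : C(E, F)) (f' : C(E, G))
    (hf : ∀ x, HasFDerivAt f (B (f' x)) x) (γ : C(K, E)) :
    HasFDerivAt (nem f : C(K, E) → C(K, F)) (ev K B (nem f' γ)) γ := by
  rw [hasFDerivAt_iff_isLittleO_nhds_zero, Asymptotics.isLittleO_iff]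
  intro c hc
  have hcpt : IsCompact (range γ) := isCompact_range γ.continuous
  have hcont : Continuous fun x => B (f' x) := by fun_prop
  have hU := hcpt.uniformContinuousAt_of_continuousAt (r := {p | dist p.1 p.2 < c})
    (fun x => B (f' x)) (fun a _ => hcont.continuousAt) (Metric.dist_mem_uniformity hc)
  rw [Metric.mem_uniformity_dist] at hU
  obtain ⟨δ, hδ, hU⟩ := hU
  filter_upwards [Metric.ball_mem_nhds (0 : C(K, E)) hδ] with h hh
  rw [mem_ball_zero_iff] at hh
  rw [ContinuousMap.norm_le _ (by positivity)]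
  intro s
  simp only [ContinuousMap.sub_apply, nem_apply, ContinuousMap.add_apply, ev_apply]
  have hs : ‖h s‖ < δ := (h.norm_coe_le_norm s).trans_lt hh
  have key := (convex_ball (γ s) δ).norm_image_sub_le_of_norm_hasFDerivWithin_le'
    (f := f) (f' := fun x => B (f' x)) (φ := B (f' (γ s))) (C := c) (x := γ s) (y := γ s + h s)
    (fun x _ => (hf x).hasFDerivWithinAt)
    (fun x hx => by
      have := hU (a := γ s) (b := x) (by rw [dist_comm]; exact hx) (mem_range_self s)
      simp only [mem_ofPred_eq] at this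
      rw [dist_comm, dist_eq_norm] at this
      exact this.le)
    (Metric.mem_ball_self hδ) (by simpa using hs)
  simp only [add_sub_cancel_left] at key
  exact key.trans (mul_le_mul_of_nonneg_left (h.norm_coe_le_norm s) hc.le)

theorem contDiff_nem_succ (n : ℕ) (B : G →L[ℝ] E →L[ℝ] F) (f : C(E, F)) (f' : C(E, G))
    (hf : ∀ x, HasFDerivAt f (B (f' x)) x)
    (ih : ContDiff ℝ n (nem f' : C(K, E) → C(K, G))) :
    ContDiff ℝ (n + 1 : ℕ) (nem f : C(K, E) → C(K, F)) := by
  have hder : ∀ γ : C(K, E), HasFDerivAt (nem f : C(K, E) → C(K, F)) (ev K B (nem f' γ)) γ :=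
    hasFDerivAt_nem B f f' hf
  rw [Nat.cast_succ, contDiff_succ_iff_fderiv]
  refine ⟨fun γ => (hder γ).differentiableAt, by simp, ?_⟩
  have : fderiv ℝ (nem f : C(K, E) → C(K, F)) = fun γ => ev K B (nem f' γ) := by
    funext γ; exact (hder γ).fderiv
  rw [this]
  exact (ev K B).contDiff.comp ih

end Ev

theorem contDiff_nem_nat (n : ℕ) {E : Type u} [NormedAddCommGroup E] [NormedSpace ℝ E] :
    ∀ {F : Type u} [NormedAddCommGroup F] [NormedSpace ℝ F] (f : C(E, F)),
      ContDiff ℝ n f → ContDiff ℝ n (nem f : C(K, E) → C(K, F)) := by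
  induction n with
  | zero =>
    intro F _ _ f _
    simp only [CharP.cast_eq_zero, contDiff_zero]
    exact ContinuousMap.continuous_postcomp f
  | succ n ih =>
    intro F _ _ f hf
    rw [Nat.cast_succ, contDiff_succ_iff_fderiv] at hf
    obtain ⟨hd, -, hc⟩ := hf
    exact contDiff_nem_succ (G := E →L[ℝ] F) n (ContinuousLinearMap.id ℝ (E →L[ℝ] F)) f
      ⟨fderiv ℝ f, hc.continuous⟩ (fun x => (hd x).hasFDerivAt) (ih _ hc)

theorem contDiff_nem {E F : Type u} [NormedAddCommGroup E] [NormedSpace ℝ E]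
    [NormedAddCommGroup F] [NormedSpace ℝ F] (f : C(E, F)) (hf : ContDiff ℝ ∞ f) :
    ContDiff ℝ ∞ (nem f : C(K, E) → C(K, F)) := by
  rw [contDiff_infty] at hf ⊢
  exact fun n => contDiff_nem_nat n f (hf n)

end Crest.Agent.SmoothFlow
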